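import Vale.Agent.P102.Criteria

open MeasureTheory Filter Topology

namespace Vale.Agent.Results.P102.DiagonalCriterion

open Vale.Agent.P102

theorem result {Ω : Type*} [MeasurableSpace Ω] (μ : Measure Ω) [IsProbabilityMeasure μ]
    (T : Ω → Ω) (hT : MeasurePreserving T μ μ) (hmix : Mixing μ T) :
    (MixingOrderThree μ T ↔
      ∀ A : Set Ω, MeasurableSet A → ∀ ε : ℝ, 0 < ε →
        ∀ᶠ p : ℕ × ℕ in atTop ×ˢ atTop,
          μ.real (A ∩ T^[p.1] ⁻¹' A ∩ T^[p.1 + p.2] ⁻¹' A) ≤ μ.real A ^ 3 + ε) ∧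
    (MixingOrderThree μ T ↔
      ∀ A : Set Ω, MeasurableSet A → ∀ ε : ℝ, 0 < ε →
        ∀ᶠ p : ℕ × ℕ in atTop ×ˢ atTop,
          μ.real A ^ 3 - ε ≤ μ.real (A ∩ T^[p.1] ⁻¹' A ∩ T^[p.1 + p.2] ⁻¹' A)) := by
  have e : ∀ A : Set Ω, μ.real A * μ.real A * μ.real A = μ.real A ^ 3 := fun A => by ring
  refine ⟨⟨?_, ?_⟩, ⟨?_, ?_⟩⟩
  · intro h3 A hA ε hε
    have h := h3 A A A hA hA hA
    rw [e] at h
    exact (h.eventually (gt_mem_nhds (by linarith : μ.real A ^ 3 < μ.real A ^ 3 + ε))).mono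
      (fun p hp => le_of_lt hp)
  · intro hdiag A B C hA hB hC
    rw [tendsto_iff_ultrafilter]
    intro U hU
    have hpre := isPreJoining_limCorr hT hmix U hU
    have hcs : HasCS T (limCorr μ T U) := hasCS_limCorr hT U
    have hd : ∀ A, MeasurableSet A → limCorr μ T U A A A ≤ μ.real A ^ 3 := by
      intro A hA
      apply le_of_forall_pos_le_add
      intro ε hε
      exact le_of_tendsto (tendsto_limCorr μ T U A A A) (hU (hdiag A hA ε hε))
    have := eq_prod hT hmix hpre hcs hd hA hB hC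
    rw [← this]
    exact tendsto_limCorr μ T U A B C
  · intro h3 A hA ε hε
    have h := h3 A A A hA hA hA
    rw [e] at h
    exact (h.eventually (lt_mem_nhds (by linarith : μ.real A ^ 3 - ε < μ.real A ^ 3))).mono
      (fun p hp => le_of_lt hp)
  · intro hdiag A B C hA hB hC
    rw [tendsto_iff_ultrafilter]
    intro U hU
    have hpre := isPreJoining_limCorr hT hmix U hU
    have hcs : HasCS T (limCorr μ T U) := hasCS_limCorr hT U
    have hd' : ∀ A, MeasurableSet A → μ.real A ^ 3 ≤ limCorr μ T U A A A := by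
      intro A hA
      apply le_of_forall_pos_le_add
      intro ε hε
      have := ge_of_tendsto (tendsto_limCorr μ T U A A A) (hU (hdiag A hA ε hε))
      linarith
    have := eq_prod hT hmix hpre hcs (fun A hA => hpre.diag_le_of_ge hd' hA) hA hB hC
    rw [← this]
    exact tendsto_limCorr μ T U A B C

end Vale.Agent.Results.P102.DiagonalCriterion
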