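import Vale.Agent.Results.P102.BoundedRatioCriterion
import Vale.Agent.Results.P102.DiagonalCriterion

open MeasureTheory Filter Topology

namespace Vale.Agent.Results.P102.A0_Combined

open Vale.Agent.P102

theorem result {Ω : Type*} [MeasurableSpace Ω] (μ : Measure Ω) [IsProbabilityMeasure μ]
    (T : Ω → Ω) (hT : MeasurePreserving T μ μ) (hmix : Mixing μ T) :
    (MixingOrderThree μ T ↔
      ∃ K : ℝ, ∀ A B C : Set Ω, MeasurableSet A → MeasurableSet B → MeasurableSet C →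
        ∀ ε : ℝ, 0 < ε → ∀ᶠ p : ℕ × ℕ in atTop ×ˢ atTop,
          μ.real (A ∩ T^[p.1] ⁻¹' B ∩ T^[p.1 + p.2] ⁻¹' C)
            ≤ K * (μ.real A * μ.real B * μ.real C) + ε) ∧
    (MixingOrderThree μ T ↔
      ∀ A : Set Ω, MeasurableSet A → ∀ ε : ℝ, 0 < ε →
        ∀ᶠ p : ℕ × ℕ in atTop ×ˢ atTop,
          μ.real (A ∩ T^[p.1] ⁻¹' A ∩ T^[p.1 + p.2] ⁻¹' A) ≤ μ.real A ^ 3 + ε) ∧
    (MixingOrderThree μ T ↔
      ∀ A : Set Ω, MeasurableSet A → ∀ ε : ℝ, 0 < ε →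
        ∀ᶠ p : ℕ × ℕ in atTop ×ˢ atTop,
          μ.real A ^ 3 - ε ≤ μ.real (A ∩ T^[p.1] ⁻¹' A ∩ T^[p.1 + p.2] ⁻¹' A)) :=
  ⟨BoundedRatioCriterion.result μ T hT hmix, DiagonalCriterion.result μ T hT hmix⟩

end Vale.Agent.Results.P102.A0_Combined
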