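import Vale.Agent.P102.Criteria

open MeasureTheory Filter Topology

namespace Vale.Agent.Results.P102.BoundedRatioCriterion

open Vale.Agent.P102

theorem result {Ω : Type*} [MeasurableSpace Ω] (μ : Measure Ω) [IsProbabilityMeasure μ]
    (T : Ω → Ω) (hT : MeasurePreserving T μ μ) (hmix : Mixing μ T) :
    MixingOrderThree μ T ↔
      ∃ K : ℝ, ∀ A B C : Set Ω, MeasurableSet A → MeasurableSet B → MeasurableSet C →
        ∀ ε : ℝ, 0 < ε → ∀ᶠ p : ℕ × ℕ in atTop ×ˢ atTop,
          μ.real (A ∩ T^[p.1] ⁻¹' B ∩ T^[p.1 + p.2] ⁻¹' C)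
            ≤ K * (μ.real A * μ.real B * μ.real C) + ε := by
  constructor
  · intro h3
    refine ⟨1, fun A B C hA hB hC ε hε => ?_⟩
    have h := h3 A B C hA hB hC
    rw [one_mul]
    exact (h.eventually (gt_mem_nhds (by linarith :
      μ.real A * μ.real B * μ.real C < μ.real A * μ.real B * μ.real C + ε))).mono
      (fun p hp => le_of_lt hp)
  · rintro ⟨K, hK⟩ A B C hA hB hC
    rw [tendsto_iff_ultrafilter]
    intro U hU
    have hpre := isPreJoining_limCorr hT hmix U hU
    have hcs : HasCS T (limCorr μ T U) := hasCS_limCorr hT U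
    have hd : ∀ A B C, MeasurableSet A → MeasurableSet B → MeasurableSet C →
        limCorr μ T U A B C ≤ K * (μ.real A * μ.real B * μ.real C) := by
      intro A B C hA hB hC
      apply le_of_forall_pos_le_add
      intro ε hε
      exact le_of_tendsto (tendsto_limCorr μ T U A B C) (hU (hK A B C hA hB hC ε hε))
    have := eq_prod_of_bounded_ratio hT hmix hpre hcs hd hA hB hC
    rw [← this]
    exact tendsto_limCorr μ T U A B C

end Vale.Agent.Results.P102.BoundedRatioCriterion
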